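import Mathlib

/-!
Definitions for the stability exponents of quadratic optimal transport maps,
measured against the Wasserstein distance of an arbitrary order `p`.
-/

open MeasureTheory ENNReal
open scoped NNReal

namespace Vale.Agent.Lib.P074c

/-- Euclidean space of dimension `d`, with the Euclidean norm. -/
abbrev E (d : ℕ) := EuclideanSpace ℝ (Fin d)

/-- The uniform probability measure `|K|⁻¹ 1_K dx` on `K`. -/
noncomputable def unif {d : ℕ} (K : Set (E d)) : Measure (E d) :=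
  (volume K)⁻¹ • volume.restrict K

/-- `T` is a quadratic optimal transport map from `ρ` to `μ`: a Borel map pushing `ρ` to `μ`
that minimizes the quadratic cost among all Borel maps pushing `ρ` to `μ`. -/
def IsOTMap {d : ℕ} (ρ μ : Measure (E d)) (T : E d → E d) : Prop :=
  Measurable T ∧ ρ.map T = μ ∧
    ∀ S : E d → E d, Measurable S → ρ.map S = μ →
      ∫⁻ x, ENNReal.ofReal (‖x - T x‖ ^ 2) ∂ρ ≤ ∫⁻ x, ENNReal.ofReal (‖x - S x‖ ^ 2) ∂ρ

/-- The Wasserstein distance of order `p`: the `p`-th root of the infimum of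
`∫ |y - z|^p dπ` over all couplings `π` of `μ` and `ν`. -/
noncomputable def Wass {d : ℕ} (p : ℝ) (μ ν : Measure (E d)) : ℝ≥0∞ :=
  (⨅ π : Measure (E d × E d), ⨅ _ : π.fst = μ ∧ π.snd = ν,
    ∫⁻ z, ENNReal.ofReal (‖z.1 - z.2‖ ^ p) ∂π) ^ (1 / p)

/-- The exponent `α ∈ (0,1]` is admissible in dimension `d` with respect to `W_p`:
for every compact convex `K` with nonempty interior and every nonempty compact `Y` there is a
finite constant `C` with `‖T_μ - T_ν‖_{L²(ρ)} ≤ C W_p(μ,ν)^α` for all Borel probability measures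
`μ, ν` concentrated on `Y`, where `ρ` is uniform on `K` and `T_μ, T_ν` are the quadratic optimal
transport maps from `ρ`. -/
def Admissible (d : ℕ) (p α : ℝ) : Prop :=
  0 < α ∧ α ≤ 1 ∧
  ∀ K : Set (E d), IsCompact K → Convex ℝ K → (interior K).Nonempty →
  ∀ Y : Set (E d), IsCompact Y → Y.Nonempty →
  ∃ C : ℝ≥0, ∀ μ ν : Measure (E d), IsProbabilityMeasure μ → IsProbabilityMeasure ν →
    (∀ᵐ y ∂μ, y ∈ Y) → (∀ᵐ y ∂ν, y ∈ Y) →
    ∀ Tμ Tν : E d → E d, IsOTMap (unif K) μ Tμ → IsOTMap (unif K) ν Tν →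
      eLpNorm (fun x => Tμ x - Tν x) 2 (unif K) ≤ C * Wass p μ ν ^ α

end Vale.Agent.Lib.P074c
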