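import Vale.Agent.Lib.P074c.Example

open MeasureTheory ENNReal
open scoped NNReal

namespace Vale.Agent.Lib.P074c

lemma map_cellMap_support {d : ℕ} (ρ : Measure (E d)) (b : E d) (c : ℝ) (hb : ‖b‖ ≤ 2) :
    ∀ᵐ y ∂(ρ.map (cellMap b c)), y ∈ Metric.closedBall (0 : E d) 2 := by
  refine (ae_map_iff (measurable_cellMap b c).aemeasurable
    (Metric.isClosed_closedBall (x := (0 : E d)) (ε := 2)).measurableSet).mpr ?_
  refine Filter.Eventually.of_forall fun x => ?_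
  simp only [Metric.mem_closedBall, dist_zero_right]
  unfold cellMap
  split_ifs
  · exact hb
  · simp

/-- a purely real-variable contradiction -/
lemma real_contra (C p α : ℝ) (hC : 0 ≤ C) (hp : 0 < p) (hα0 : 0 < α) (hα1 : α ≤ 1)
    (hq : 1 / 2 < α * (1 + 1 / p))
    (h : ∀ t : ℝ, 0 < t → t ≤ 1 / 4 →
      (t / 8) ^ (1 / 2 : ℝ) ≤ C * (((2 * t) ^ p * t) ^ (1 / p)) ^ α) :
    False := by
  set q : ℝ := α * (1 + 1 / p) - 1 / 2 with hqdef
  have hq0 : 0 < q := by rw [hqdef]; linarith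
  set M : ℝ := 6 * C + 1 with hM
  have hM0 : 0 < M := by rw [hM]; positivity
  set t : ℝ := min (1 / 4) ((1 / M) ^ (1 / q)) with ht
  have ht0 : 0 < t := by
    rw [ht]
    exact lt_min (by norm_num) (Real.rpow_pos_of_pos (by positivity) _)
  have ht1 : t ≤ 1 / 4 := min_le_left _ _
  have htq : t ^ q ≤ 1 / M := by
    calc t ^ q ≤ ((1 / M) ^ (1 / q)) ^ q :=
          Real.rpow_le_rpow ht0.le (min_le_right _ _) hq0.le
      _ = 1 / M := by
          rw [← Real.rpow_mul (by positivity), one_div_mul_cancel hq0.ne', Real.rpow_one]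
  have h1 := h t ht0 ht1
  have e1 : ((2 * t) ^ p * t) ^ (1 / p) = 2 * (t * t ^ (1 / p)) := by
    rw [Real.mul_rpow (by positivity) ht0.le, ← Real.rpow_mul (by positivity),
      mul_one_div_cancel hp.ne', Real.rpow_one]
    ring
  have e2 : (2 * (t * t ^ (1 / p))) ^ α = (2 : ℝ) ^ α * (t ^ (1 / 2 : ℝ) * t ^ q) := by
    rw [Real.mul_rpow (by norm_num) (by positivity)]
    congr 1
    have : t * t ^ (1 / p) = t ^ (1 + 1 / p) := by
      rw [Real.rpow_add ht0, Real.rpow_one]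
    rw [this, ← Real.rpow_mul ht0.le, ← Real.rpow_add ht0]
    congr 1
    rw [hqdef]; ring
  have e3 : (2 : ℝ) ^ α ≤ 2 := by
    calc (2 : ℝ) ^ α ≤ (2 : ℝ) ^ (1 : ℝ) := Real.rpow_le_rpow_of_exponent_le (by norm_num) hα1
      _ = 2 := Real.rpow_one 2
  have e4 : t ^ (1 / 2 : ℝ) / 3 ≤ (t / 8) ^ (1 / 2 : ℝ) := by
    rw [Real.div_rpow ht0.le (by norm_num)]
    have h8 : (8 : ℝ) ^ (1 / 2 : ℝ) ≤ 3 := by
      have : (8 : ℝ) ^ (1 / 2 : ℝ) ≤ (9 : ℝ) ^ (1 / 2 : ℝ) :=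
        Real.rpow_le_rpow (by norm_num) (by norm_num) (by norm_num)
      have h9 : (9 : ℝ) ^ (1 / 2 : ℝ) = 3 := by
        rw [show (9 : ℝ) = 3 ^ (2 : ℝ) by norm_num, ← Real.rpow_mul (by norm_num)]
        norm_num
      linarith
    apply div_le_div_of_nonneg_left (by positivity) (by positivity) h8
  rw [e1, e2] at h1
  have hs : 0 < t ^ (1 / 2 : ℝ) := Real.rpow_pos_of_pos ht0 _
  have h2 : t ^ (1 / 2 : ℝ) / 3 ≤ C * (2 * (t ^ (1 / 2 : ℝ) * (1 / M))) := by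
    refine e4.trans (h1.trans ?_)
    apply mul_le_mul_of_nonneg_left _ hC
    calc (2 : ℝ) ^ α * (t ^ (1 / 2 : ℝ) * t ^ q) ≤ 2 * (t ^ (1 / 2 : ℝ) * t ^ q) :=
          mul_le_mul_of_nonneg_right e3 (by positivity)
      _ ≤ 2 * (t ^ (1 / 2 : ℝ) * (1 / M)) := by
          apply mul_le_mul_of_nonneg_left _ (by norm_num)
          exact mul_le_mul_of_nonneg_left htq hs.le
  have h3 : 1 / 3 ≤ C * 2 / M := by
    have : t ^ (1 / 2 : ℝ) * (1 / 3) ≤ t ^ (1 / 2 : ℝ) * (C * 2 / M) := by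
      calc t ^ (1 / 2 : ℝ) * (1 / 3) = t ^ (1 / 2 : ℝ) / 3 := by ring
        _ ≤ C * (2 * (t ^ (1 / 2 : ℝ) * (1 / M))) := h2
        _ = t ^ (1 / 2 : ℝ) * (C * 2 / M) := by ring
    exact le_of_mul_le_mul_left this hs
  rw [le_div_iff₀ hM0, hM] at h3
  linarith

/-- No exponent above `p / (2 (p + 1))` is admissible with respect to `W_p`. -/
theorem admissible_le {d : ℕ} (hd : 2 ≤ d) {p α : ℝ} (hp : 0 < p) (h : Admissible d p α) :
    α ≤ p / (2 * (p + 1)) := by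
  by_contra hα
  push Not at hα
  obtain ⟨hα0, hα1, hK⟩ := h
  have hq : 1 / 2 < α * (1 + 1 / p) := by
    have h2 : p < α * (2 * (p + 1)) := by
      rwa [div_lt_iff₀ (by positivity)] at hα
    have h1 : α * (1 + 1 / p) = α * (p + 1) / p := by field_simp
    rw [h1, lt_div_iff₀ hp]
    nlinarith
  let i0 : Fin d := ⟨0, by omega⟩
  let i1 : Fin d := ⟨1, by omega⟩
  have h01 : i0 ≠ i1 := by simp [i0, i1, Fin.ext_iff]
  obtain ⟨C, hC⟩ := hK (cube d) (isCompact_cube d) (convex_cube d) (interior_cube_nonempty d)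
    (Metric.closedBall 0 2) (isCompact_closedBall 0 2) ⟨0, by simp⟩
  apply real_contra (C : ℝ) p α C.coe_nonneg hp hα0 hα1 hq
  intro t ht0 ht1
  have ht1' : t ≤ 1 := by linarith
  have hm1 := measurable_cellMap (vec i0 i1 t) 1
  have hm2 := measurable_cellMap (vec i0 i1 (-t)) (1 - t)
  have hmain := hC ((unif (cube d)).map (cellMap (vec i0 i1 t) 1))
    ((unif (cube d)).map (cellMap (vec i0 i1 (-t)) (1 - t)))
    (Measure.isProbabilityMeasure_map hm1.aemeasurable)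
    (Measure.isProbabilityMeasure_map hm2.aemeasurable)
    (map_cellMap_support _ _ _ (norm_vec_le_two i0 i1 h01 t (by nlinarith)))
    (map_cellMap_support _ _ _ (norm_vec_le_two i0 i1 h01 (-t) (by nlinarith)))
    (cellMap (vec i0 i1 t) 1) (cellMap (vec i0 i1 (-t)) (1 - t))
    (isOTMap_cellMap _ _ _ (vec_ne_zero i0 i1 h01 t)
      (by rw [norm_vec_sq i0 i1 h01]; nlinarith))
    (isOTMap_cellMap _ _ _ (vec_ne_zero i0 i1 h01 (-t))
      (by rw [norm_vec_sq i0 i1 h01]; nlinarith))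
  have hchain : (ENNReal.ofReal (t / 8)) ^ (1 / 2 : ℝ) ≤
      (C : ℝ≥0∞) * ((ENNReal.ofReal ((2 * t) ^ p * t)) ^ (1 / p)) ^ α := by
    refine (dist_maps_ge i0 i1 h01 t ht0 ht1').trans (hmain.trans ?_)
    gcongr
    exact Wass_targets_le p hp i0 i1 h01 t ht0 ht1'
  rw [ENNReal.ofReal_rpow_of_pos (by positivity), ENNReal.ofReal_rpow_of_pos (by positivity),
    ENNReal.ofReal_rpow_of_pos (by positivity), ← ENNReal.ofReal_coe_nnreal,
    ← ENNReal.ofReal_mul C.coe_nonneg] at hchain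
  exact (ENNReal.ofReal_le_ofReal_iff (by positivity)).mp hchain

end Vale.Agent.Lib.P074c
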